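import Vale.Agent.P154.GWMain

/-- Three-state ferromagnetic Potts channel: nonreconstruction whenever `d * lam ^ 2 ≤ 1`, on the
rooted `d`-ary tree for every integer `d ≥ 2` and on the Poisson Galton-Watson tree of mean `d` for
every real `d > 0`. -/
theorem Vale.Agent.Results.P154.Ferro3AllTrees.result :
    (∀ d : ℕ, 2 ≤ d → ∀ lam : ℝ, 0 ≤ lam → (d : ℝ) * lam ^ 2 ≤ 1 →
      Filter.Tendsto (Vale.Agent.P154.reconA 3 d lam) Filter.atTop (nhds 0))
    ∧ (∀ d : ℝ, 0 < d → ∀ lam : ℝ, 0 ≤ lam → lam ≤ 1 → d * lam ^ 2 ≤ 1 →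
      (∀ n, Summable fun T : Vale.Agent.P154.DTree n =>
        T.prob (Vale.Agent.P154.poissonWeight d) * T.treeA 3 lam)
      ∧ Filter.Tendsto (Vale.Agent.P154.gwA 3 (Vale.Agent.P154.poissonWeight d) lam)
        Filter.atTop (nhds 0)) :=
  ⟨fun _ hd _ h0 hlam => Vale.Agent.P154.reconA_tendsto_zero hd h0 hlam,
    fun _ hd _ h0 h1 hlam => Vale.Agent.P154.gw_poisson hd h0 h1 hlam⟩
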