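import Vale.Agent.P154.KS.Assemble
import Vale.Agent.P154.Hel.Reg4
import Vale.Agent.P154.Hel.Reg5
import Vale.Agent.P154.Hel.CP.Poi2.Curve

/-- The reconstruction threshold of the three- and four-state Potts channels: for `q = 3` and every
admissible `lam` (that is `-1/2 ≤ lam ≤ 1`), and for `q = 4` and every `0 ≤ lam ≤ 1`, on the rooted `d`-ary tree
for every integer `d ≥ 2` and on the Poisson Galton-Watson tree of mean `d` for every real `d > 0`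
(where the series defining `a_n` is summable): if `d * lam ^ 2 ≤ 1` then `a_n` tends to `0`,
and if `d * lam ^ 2 > 1` then `a_n` stays above a positive constant. -/
theorem Vale.Agent.Results.P154.Potts34Full.result :
    (∀ d : ℕ, 2 ≤ d → ∀ lam : ℝ, -(1 / 2) ≤ lam → lam ≤ 1 →
      ((d : ℝ) * lam ^ 2 ≤ 1 → Filter.Tendsto (Vale.Agent.P154.reconA 3 d lam) Filter.atTop (nhds 0)) ∧
      (1 < (d : ℝ) * lam ^ 2 → ∃ c : ℝ, 0 < c ∧ ∀ n, c ≤ Vale.Agent.P154.reconA 3 d lam n))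
    ∧ (∀ d : ℕ, 2 ≤ d → ∀ lam : ℝ, 0 ≤ lam → lam ≤ 1 →
      ((d : ℝ) * lam ^ 2 ≤ 1 → Filter.Tendsto (Vale.Agent.P154.reconA 4 d lam) Filter.atTop (nhds 0)) ∧
      (1 < (d : ℝ) * lam ^ 2 → ∃ c : ℝ, 0 < c ∧ ∀ n, c ≤ Vale.Agent.P154.reconA 4 d lam n))
    ∧ (∀ d : ℝ, 0 < d → ∀ lam : ℝ, -(1 / 2) ≤ lam → lam ≤ 1 →
      (∀ n, Summable fun T : Vale.Agent.P154.DTree n =>
        T.prob (Vale.Agent.P154.poissonWeight d) * T.treeA 3 lam) ∧
      (d * lam ^ 2 ≤ 1 →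
        Filter.Tendsto (Vale.Agent.P154.gwA 3 (Vale.Agent.P154.poissonWeight d) lam) Filter.atTop (nhds 0)) ∧
      (1 < d * lam ^ 2 → ∃ c : ℝ, 0 < c ∧ ∀ n, c ≤ Vale.Agent.P154.gwA 3 (Vale.Agent.P154.poissonWeight d) lam n))
    ∧ (∀ d : ℝ, 0 < d → ∀ lam : ℝ, 0 ≤ lam → lam ≤ 1 →
      (∀ n, Summable fun T : Vale.Agent.P154.DTree n =>
        T.prob (Vale.Agent.P154.poissonWeight d) * T.treeA 4 lam) ∧
      (d * lam ^ 2 ≤ 1 →
        Filter.Tendsto (Vale.Agent.P154.gwA 4 (Vale.Agent.P154.poissonWeight d) lam) Filter.atTop (nhds 0)) ∧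
      (1 < d * lam ^ 2 → ∃ c : ℝ, 0 < c ∧ ∀ n, c ≤ Vale.Agent.P154.gwA 4 (Vale.Agent.P154.poissonWeight d) lam n)) := by
  have h := Vale.Agent.P154.KS.potts34_dichotomy_of_critical Vale.Agent.P154.Hel.Corner.reg4_final
    Vale.Agent.P154.Hel.Corner.reg5_final
    (fun t h0 h1 => Vale.Agent.P154.Hel.Direct.Poi2.curve h0.le h1)
  exact ⟨h.1.1, h.2.1, h.1.2, h.2.2⟩
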