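import Vale.Agent.P154.KS.Assemble
import Vale.Agent.P154.Hel.Reg4
import Vale.Agent.P154.Hel.Reg5

/-- The threshold of reconstruction of the Potts channel: on the rooted `d`-ary tree for every integer
`d ≥ 2`, for `q = 3` and every admissible `lam` (that is `-1/2 ≤ lam ≤ 1`), and for `q = 4` and every
`0 ≤ lam ≤ 1`: if `d * lam ^ 2 ≤ 1` then `a_n` tends to `0`, and if `d * lam ^ 2 > 1` then `a_n` stays
above a positive constant. The same two-sided statement on the Poisson Galton-Watson tree of mean `d`, for every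
real `d > 0`, for `q = 4` and `0 ≤ lam ≤ 1`, and for `q = 3` and `-(3345/8192) ≤ lam ≤ 1`. -/
theorem Vale.Agent.Results.P154.Potts34Regular.result :
    (∀ d : ℕ, 2 ≤ d → ∀ lam : ℝ, -(1 / 2) ≤ lam → lam ≤ 1 →
      ((d : ℝ) * lam ^ 2 ≤ 1 → Filter.Tendsto (Vale.Agent.P154.reconA 3 d lam) Filter.atTop (nhds 0)) ∧
      (1 < (d : ℝ) * lam ^ 2 → ∃ c : ℝ, 0 < c ∧ ∀ n, c ≤ Vale.Agent.P154.reconA 3 d lam n))
    ∧ (∀ d : ℕ, 2 ≤ d → ∀ lam : ℝ, 0 ≤ lam → lam ≤ 1 →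
      ((d : ℝ) * lam ^ 2 ≤ 1 → Filter.Tendsto (Vale.Agent.P154.reconA 4 d lam) Filter.atTop (nhds 0)) ∧
      (1 < (d : ℝ) * lam ^ 2 → ∃ c : ℝ, 0 < c ∧ ∀ n, c ≤ Vale.Agent.P154.reconA 4 d lam n))
    ∧ (∀ d : ℝ, 0 < d → ∀ lam : ℝ, -(3345 / 8192) ≤ lam → lam ≤ 1 →
      (∀ n, Summable fun T : Vale.Agent.P154.DTree n =>
        T.prob (Vale.Agent.P154.poissonWeight d) * T.treeA 3 lam) ∧
      (d * lam ^ 2 ≤ 1 →
        Filter.Tendsto (Vale.Agent.P154.gwA 3 (Vale.Agent.P154.poissonWeight d) lam) Filter.atTop (nhds 0)) ∧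
      (1 < d * lam ^ 2 → ∃ c : ℝ, 0 < c ∧ ∀ n, c ≤ Vale.Agent.P154.gwA 3 (Vale.Agent.P154.poissonWeight d) lam n))
    ∧ (∀ d : ℝ, 0 < d → ∀ lam : ℝ, 0 ≤ lam → lam ≤ 1 →
      (∀ n, Summable fun T : Vale.Agent.P154.DTree n =>
        T.prob (Vale.Agent.P154.poissonWeight d) * T.treeA 4 lam) ∧
      (d * lam ^ 2 ≤ 1 →
        Filter.Tendsto (Vale.Agent.P154.gwA 4 (Vale.Agent.P154.poissonWeight d) lam) Filter.atTop (nhds 0)) ∧
      (1 < d * lam ^ 2 → ∃ c : ℝ, 0 < c ∧ ∀ n, c ≤ Vale.Agent.P154.gwA 4 (Vale.Agent.P154.poissonWeight d) lam n)) := by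
  have h4 := Vale.Agent.P154.Hel.Corner.reg4_final
  have h5 : Filter.Tendsto (Vale.Agent.P154.reconA 3 5 (-Real.sqrt (1 / 5))) Filter.atTop (nhds 0) :=
    Vale.Agent.P154.Hel.Corner.reg5_final
  obtain ⟨h4R, h4P⟩ := Vale.Agent.P154.Q4.BB.potts4_all
  have hD4 := Vale.Agent.P154.KS.dichotomy_of_nonrecon (q := 4) (lam0 := 0) (by norm_num) (by norm_num) h4R h4P
  have h3P : ∀ d : ℝ, 0 < d → ∀ lam : ℝ, -(3345 / 8192) ≤ lam → lam ≤ 1 → d * lam ^ 2 ≤ 1 →
      (∀ n, Summable fun T : Vale.Agent.P154.DTree n =>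
        T.prob (Vale.Agent.P154.poissonWeight d) * T.treeA 3 lam)
      ∧ Filter.Tendsto (Vale.Agent.P154.gwA 3 (Vale.Agent.P154.poissonWeight d) lam)
        Filter.atTop (nhds 0) := by
    intro d hd lam h0 h1 hlam
    rcases le_or_gt 0 lam with h | h
    · exact Vale.Agent.P154.gw_poisson hd h h1 hlam
    · have := Vale.Agent.P154.Hel.Q3.gw_neg (t := -lam) (d := d) (by linarith)
        (by unfold Vale.Agent.P154.Hel.Q3.tauMax; linarith) hd.le (by rw [neg_sq]; exact hlam)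
      rwa [neg_neg] at this
  have h3R : ∀ d : ℕ, 2 ≤ d → ∀ lam : ℝ, -(1 / 2) ≤ lam → (d : ℝ) * lam ^ 2 ≤ 1 →
      Filter.Tendsto (Vale.Agent.P154.reconA 3 d lam) Filter.atTop (nhds 0) := by
    intro d hd lam h0 hlam
    rcases le_or_gt 0 lam with h | h
    · exact Vale.Agent.P154.reconA_tendsto_zero hd h hlam
    · rcases le_or_gt (-(3345 / 8192)) lam with h' | h'
      · have := Vale.Agent.P154.Hel.Q3.recon_neg (t := -lam) (d := d) (by linarith)
          (by unfold Vale.Agent.P154.Hel.Q3.tauMax; linarith) hd (by rw [neg_sq]; exact hlam)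
        rwa [neg_neg] at this
      · have := Vale.Agent.P154.Hel.corner_regular h4 h5 (d := d) (t := -lam) (by linarith) (by linarith)
          (by rw [neg_sq]; exact hlam)
        rwa [neg_neg] at this
  refine ⟨fun d hd lam h0 h1 => ⟨h3R d hd lam h0, fun h =>
      Vale.Agent.P154.KS.ks_regular (by norm_num) (by norm_num; linarith) h1 h⟩, hD4.1, ?_, hD4.2⟩
  intro d hd lam h0 h1
  refine ⟨Vale.Agent.P154.KS.summable_poisson (q := 3) (by norm_num) hd (by norm_num; linarith) h1,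
    fun h => (h3P d hd lam h0 h1 h).2, fun h => ?_⟩
  obtain ⟨c, hc, hle⟩ := Vale.Agent.P154.KS.ks_poisson (q := 3) (by norm_num) hd (by norm_num; linarith) h1 h
  exact ⟨c, hc, fun n => (hle n).2⟩
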