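import Vale.Agent.P154.Hel.Q3Main
import Vale.Agent.P154.GWMain

/-- Three-state Potts channel: nonreconstruction whenever `d * lam ^ 2 ≤ 1` and `-(3345/8192) ≤ lam`,
on the rooted `d`-ary tree for every integer `d ≥ 2` and on the Poisson Galton-Watson tree of mean `d`
for every real `d > 0`. Note `1/6 < (3345/8192)^2`, so for `d ≥ 6` every admissible `lam` with
`d * lam ^ 2 ≤ 1` is covered. -/
theorem Vale.Agent.Results.P154.Potts3Neg408.result :
    (∀ d : ℕ, 2 ≤ d → ∀ lam : ℝ, -(3345 / 8192) ≤ lam → (d : ℝ) * lam ^ 2 ≤ 1 →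
      Filter.Tendsto (Vale.Agent.P154.reconA 3 d lam) Filter.atTop (nhds 0))
    ∧ (∀ d : ℝ, 0 < d → ∀ lam : ℝ, -(3345 / 8192) ≤ lam → lam ≤ 1 → d * lam ^ 2 ≤ 1 →
      (∀ n, Summable fun T : Vale.Agent.P154.DTree n =>
        T.prob (Vale.Agent.P154.poissonWeight d) * T.treeA 3 lam)
      ∧ Filter.Tendsto (Vale.Agent.P154.gwA 3 (Vale.Agent.P154.poissonWeight d) lam)
        Filter.atTop (nhds 0)) := by
  refine ⟨fun d hd lam h0 hlam => ?_, fun d hd lam h0 h1 hlam => ?_⟩
  · rcases le_or_gt 0 lam with h | h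
    · exact Vale.Agent.P154.reconA_tendsto_zero hd h hlam
    · have := Vale.Agent.P154.Hel.Q3.recon_neg (t := -lam) (d := d) (by linarith)
        (by unfold Vale.Agent.P154.Hel.Q3.tauMax; linarith) hd (by rw [neg_sq]; exact hlam)
      rwa [neg_neg] at this
  · rcases le_or_gt 0 lam with h | h
    · exact Vale.Agent.P154.gw_poisson hd h h1 hlam
    · have := Vale.Agent.P154.Hel.Q3.gw_neg (t := -lam) (d := d) (by linarith)
        (by unfold Vale.Agent.P154.Hel.Q3.tauMax; linarith) hd.le (by rw [neg_sq]; exact hlam)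
      rwa [neg_neg] at this
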