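import Vale.Agent.P154.Neg.GW
import Vale.Agent.P154.Neg.F1kProof
import Vale.Agent.P154.GWMain

/-- The certificate inequality at the chosen parameters. -/
theorem Vale.Agent.Results.P154.Potts3SmallNeg.certificate :
    Vale.Agent.P154.F1k (3 / 20) (177 / 500) (27 / 50) := by
  intro a1 a2 a3 b1 b2 b3 h1 h2 h3 h4 h5 h6 hb1 hb2 hb3
  exact Vale.Agent.P154.Neg.F1k_gen h1 h2 h3 h4 h5 h6 hb1 hb2 hb3

/-- Three-state Potts channel, nonreconstruction whenever `d * lam ^ 2 ≤ 1` and `-3/20 ≤ lam`, on the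
rooted `d`-ary tree for every integer `d ≥ 2` and on the Poisson Galton-Watson tree of mean `d` for
every real `d > 0`. -/
theorem Vale.Agent.Results.P154.Potts3SmallNeg.result :
    (∀ d : ℕ, 2 ≤ d → ∀ lam : ℝ, -(3 / 20) ≤ lam → (d : ℝ) * lam ^ 2 ≤ 1 →
      Filter.Tendsto (Vale.Agent.P154.reconA 3 d lam) Filter.atTop (nhds 0))
    ∧ (∀ d : ℝ, 0 < d → ∀ lam : ℝ, -(3 / 20) ≤ lam → lam ≤ 1 → d * lam ^ 2 ≤ 1 →
      (∀ n, Summable fun T : Vale.Agent.P154.DTree n =>
        T.prob (Vale.Agent.P154.poissonWeight d) * T.treeA 3 lam)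
      ∧ Filter.Tendsto (Vale.Agent.P154.gwA 3 (Vale.Agent.P154.poissonWeight d) lam)
        Filter.atTop (nhds 0)) := by
  have key := Vale.Agent.P154.neg_main (3 / 20) (177 / 500) (27 / 50) (by norm_num) (by norm_num)
    (by norm_num) (by norm_num) Vale.Agent.Results.P154.Potts3SmallNeg.certificate
  refine ⟨fun d hd lam h0 hlam => ?_, fun d hd lam h0 h1 hlam => ?_⟩
  · rcases le_total 0 lam with h | h
    · exact Vale.Agent.P154.reconA_tendsto_zero hd h hlam
    · exact key.1 d hd lam h0 h hlam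
  · rcases le_total 0 lam with h | h
    · exact Vale.Agent.P154.gw_poisson hd h h1 hlam
    · exact key.2 d hd lam (by linarith) h hlam (Or.inr h0)
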